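import Vale.Agent.P331.F.FinalA

/-!
# One sample per element, almighty adversary: an absolute constant for all matroids

Every finite matroid has a single-sample matroid prophet rule whose ratio against the almighty
adversary is at least an absolute constant `c > 0`.
-/

namespace Vale.Agent.Results.P331.ConstantRatio

open Vale.Agent.P331
open scoped ENNReal

/-- There is an absolute constant `c > 0` such that every finite matroid `M` has a measurable online
rule with one sample per element which is `c`-competitive against the almighty adversary. -/
theorem result : ∃ c : ℝ, 0 < c ∧ ∀ (E : Type) [Fintype E] (M : Matroid E), M.E = Set.univ →
    ∃ R : OnlineRule M, R.IsCompetitive (ENNReal.ofReal c) :=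
  Vale.Agent.P331.F.mainA

end Vale.Agent.Results.P331.ConstantRatio
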