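import Vale.Agent.P331.H489.Final
import Vale.Agent.P331.H823.Num

/-!
# One sample per element, almighty adversary: loss `O(log log r / log log log r)`

The known one-sample guarantee for all matroids of rank `r` (Lachish 2014, Feldman, Svensson and
Zenklusen 2015) loses a factor `O(log log r)`, and is for weaker adversaries.  Here the loss against
the almighty adversary is `O(log log r / log log log r)`, and `O(log L / log log L)` if all circuits
have at most `L` elements, whatever the rank.
-/

namespace Vale.Agent.Results.P331.TripleLog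

open Vale.Agent.P331 Vale.Agent.P331.H489
open scoped ENNReal

/-- There is an absolute constant `c > 0` such that every finite matroid `M` has, with one sample
per element, (1) if its rank `r` is at least `16`, a measurable online rule which is
`c * (log log log r / log log r)`-competitive against the almighty adversary; (2) if all circuits
of `M` have at most `L ≥ 3` elements, one which is `c * (log log L / log L)`-competitive against the
almighty adversary, whatever the rank; (3) explicitly, for every `m ≥ 16`, one which is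
`1 / (4000 m)`-competitive against the almighty adversary if the rank is at most `2 ^ (m ^ m)` or
all circuits have at most `m ^ m` elements. -/
theorem result : ∃ c : ℝ, 0 < c ∧ ∀ (E : Type) [Fintype E] (M : Matroid E), M.E = Set.univ →
    (16 ≤ M.eRank.toNat → ∃ R : OnlineRule M, R.IsCompetitive (ENNReal.ofReal
      (c * (Real.log (Real.log (Real.log M.eRank.toNat)) /
        Real.log (Real.log M.eRank.toNat))))) ∧
      (∀ L : ℕ, 3 ≤ L → (∀ C, M.IsCircuit C → C.encard ≤ L) → ∃ R : OnlineRule M,
        R.IsCompetitive (ENNReal.ofReal (c * (Real.log (Real.log L) / Real.log L)))) ∧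
      ∀ m : ℕ, 16 ≤ m → (M.eRank.toNat ≤ 2 ^ m ^ m ∨ ∀ C, M.IsCircuit C → C.encard ≤ (m ^ m : ℕ)) →
        ∃ R : OnlineRule M, R.IsCompetitive (ENNReal.ofReal (1 / (4000 * m))) := by
  obtain ⟨c₁, hc₁, h₁⟩ := H823.num_final
  obtain ⟨c₂, hc₂, h₂⟩ := H823.num_final'
  have mono : ∀ (E : Type) [Fintype E] (M : Matroid E) (a b : ℝ), a ≤ b →
      (∃ R : OnlineRule M, R.IsCompetitive (ENNReal.ofReal b)) →
      ∃ R : OnlineRule M, R.IsCompetitive (ENNReal.ofReal a) := by
    rintro E _ M a b hab ⟨R, hR⟩
    refine ⟨R, fun D hD hfin π hπ => ?_⟩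
    exact (mul_le_mul_left (ENNReal.ofReal_le_ofReal hab) _).trans (hR D hD hfin π hπ)
  have hexp : ∀ (E : Type) [Fintype E] (M : Matroid E), M.E = Set.univ → ∀ m : ℕ, 16 ≤ m →
      (M.eRank.toNat ≤ 2 ^ m ^ m ∨ ∀ C, M.IsCircuit C → C.encard ≤ (m ^ m : ℕ)) →
        ∃ R : OnlineRule M, R.IsCompetitive (ENNReal.ofReal (1 / (4000 * m))) := by
    rintro E _ M hM m hm (hr | hC)
    · refine ratio_rank hm hM fun I hI => ?_
      have hfin : M.eRank ≠ ⊤ := by
        have h1 : M.eRank ≤ M.E.encard := M.eRank_le_encard_ground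
        have h2 : M.E.encard < ⊤ := (M.E.toFinite).encard_lt_top
        exact (lt_of_le_of_lt h1 h2).ne
      have h3 : (I.card : ℕ∞) ≤ M.eRank := by
        rw [← Set.encard_coe_eq_coe_finsetCard]
        exact hI.encard_le_eRank
      have h4 : I.card ≤ M.eRank.toNat := by
        rw [← ENat.natCast_toNat hfin] at h3
        exact_mod_cast h3
      exact h4.trans hr
    · exact ratio_circ hm hM hC
  have hmin : ∀ c t a : ℝ, min c₁ c₂ ≤ c → c * t ≤ a → 0 ≤ a → min c₁ c₂ * t ≤ a := by
    intro c t a hc h ha
    rcases le_total 0 t with ht | ht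
    · exact (mul_le_mul_of_nonneg_right hc ht).trans h
    · exact (mul_nonpos_of_nonneg_of_nonpos (lt_min hc₁ hc₂).le ht).trans ha
  refine ⟨min c₁ c₂, lt_min hc₁ hc₂, fun E _ M hM => ⟨fun hr => ?_, fun L hL hC => ?_,
    hexp E M hM⟩⟩
  · have hr' : (16 : ℝ) ≤ (M.eRank.toNat : ℝ) := by exact_mod_cast hr
    obtain ⟨m, hm, h3, h4⟩ := h₁ _ hr'
    exact mono E M _ _ (hmin _ _ _ (min_le_left _ _) h4 (by positivity))
      (hexp E M hM m hm (Or.inl (by exact_mod_cast h3)))
  · have hL' : (3 : ℝ) ≤ (L : ℝ) := by exact_mod_cast hL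
    obtain ⟨m, hm, h3, h4⟩ := h₂ _ hL'
    refine mono E M _ _ (hmin _ _ _ (min_le_right _ _) h4 (by positivity))
      (hexp E M hM m hm (Or.inr fun C h => (hC C h).trans ?_))
    exact_mod_cast h3

end Vale.Agent.Results.P331.TripleLog
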